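import Mathlib

/-!
# The norm ultrapower of a unital C*-algebra, as a *-algebra
-/

namespace Vale.Agent.Lib.P083

open Filter Topology
open scoped ENNReal

/-- `ℓ^∞(ℕ, B)`: the norm-bounded sequences in `B`. -/
noncomputable abbrev BddSeq (B : Type*) [CStarAlgebra B] := lp (fun _ : ℕ => B) ∞

/-- `a - b ∈ I_ω(B) = {(b_n) : lim_{n → ω} ‖b_n‖ = 0}`. -/
def UltraRel (B : Type*) [CStarAlgebra B] (ω : Ultrafilter ℕ) (a b : BddSeq B) : Prop :=
  Tendsto (fun n => ‖a n - b n‖) ω (𝓝 0)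

theorem ultraRel_equiv (B : Type*) [CStarAlgebra B] (ω : Ultrafilter ℕ) :
    Equivalence (UltraRel B ω) where
  refl := fun a => by simp [UltraRel]
  symm := fun {a b} h => by
    unfold UltraRel at h ⊢
    simpa only [norm_sub_rev] using h
  trans := fun {a b c} h1 h2 => by
    unfold UltraRel at h1 h2 ⊢
    refine squeeze_zero (fun n => norm_nonneg _) (fun n => ?_) (by simpa using h1.add h2)
    calc ‖a n - c n‖ = ‖(a n - b n) + (b n - c n)‖ := by congr 1; abel
      _ ≤ ‖a n - b n‖ + ‖b n - c n‖ := norm_add_le _ _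

theorem ultraRel_mul (B : Type*) [CStarAlgebra B] [Nontrivial B] (ω : Ultrafilter ℕ)
    {a a' b b' : BddSeq B} (h1 : UltraRel B ω a a') (h2 : UltraRel B ω b b') :
    UltraRel B ω (a * b) (a' * b') := by
  unfold UltraRel at h1 h2 ⊢
  have h3 : Tendsto (fun n => ‖a n - a' n‖ * ‖b‖ + ‖a'‖ * ‖b n - b' n‖) ω (𝓝 0) := by
    simpa using (h1.mul_const ‖b‖).add (h2.const_mul ‖a'‖)
  refine squeeze_zero (fun n => norm_nonneg _) (fun n => ?_) h3
  rw [lp.infty_coeFn_mul, lp.infty_coeFn_mul]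
  simp only [Pi.mul_apply]
  calc ‖a n * b n - a' n * b' n‖ = ‖(a n - a' n) * b n + a' n * (b n - b' n)‖ := by
        congr 1; noncomm_ring
    _ ≤ ‖(a n - a' n) * b n‖ + ‖a' n * (b n - b' n)‖ := norm_add_le _ _
    _ ≤ ‖a n - a' n‖ * ‖b n‖ + ‖a' n‖ * ‖b n - b' n‖ :=
        add_le_add (norm_mul_le _ _) (norm_mul_le _ _)
    _ ≤ ‖a n - a' n‖ * ‖b‖ + ‖a'‖ * ‖b n - b' n‖ := by
        gcongr
        · exact lp.norm_apply_le_norm (by simp) b n
        · exact lp.norm_apply_le_norm (by simp) a' n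

theorem ultraRel_add (B : Type*) [CStarAlgebra B] (ω : Ultrafilter ℕ)
    {a a' b b' : BddSeq B} (h1 : UltraRel B ω a a') (h2 : UltraRel B ω b b') :
    UltraRel B ω (a + b) (a' + b') := by
  unfold UltraRel at h1 h2 ⊢
  refine squeeze_zero (fun n => norm_nonneg _) (fun n => ?_) (by simpa using h1.add h2)
  rw [lp.coeFn_add, lp.coeFn_add]
  simp only [Pi.add_apply]
  calc ‖a n + b n - (a' n + b' n)‖ = ‖(a n - a' n) + (b n - b' n)‖ := by congr 1; abel
    _ ≤ ‖a n - a' n‖ + ‖b n - b' n‖ := norm_add_le _ _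

theorem ultraRel_star (B : Type*) [CStarAlgebra B] (ω : Ultrafilter ℕ)
    (a b : BddSeq B) (h : UltraRel B ω a b) : UltraRel B ω (star a) (star b) := by
  unfold UltraRel at h ⊢
  simpa only [lp.star_apply, ← star_sub, norm_star] using h

/-- The congruence on the ring `ℓ^∞(ℕ, B)` defined by the ideal `I_ω(B)`. -/
noncomputable def ultraCon (B : Type*) [CStarAlgebra B] [Nontrivial B] (ω : Ultrafilter ℕ) :
    RingCon (BddSeq B) where
  r := UltraRel B ω
  iseqv := ultraRel_equiv B ω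
  mul' := ultraRel_mul B ω
  add' := ultraRel_add B ω

/-- The norm ultrapower `B^ω = ℓ^∞(ℕ, B) / I_ω(B)` (a unital complex algebra). -/
noncomputable abbrev Ultrapower (B : Type*) [CStarAlgebra B] [Nontrivial B] (ω : Ultrafilter ℕ) :=
  (ultraCon B ω).Quotient

/-- The involution of `B^ω`, induced by the involution of `ℓ^∞(ℕ, B)`. -/
noncomputable instance (B : Type*) [CStarAlgebra B] [Nontrivial B] (ω : Ultrafilter ℕ) :
    Star (Ultrapower B ω) where
  star := Quotient.map' star (ultraRel_star B ω)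

/-- `A` admits a unital embedding (injective unital *-homomorphism) into `B^ω`. -/
def UnitallyEmbeds (A : Type*) [CStarAlgebra A] (B : Type*) [CStarAlgebra B] [Nontrivial B]
    (ω : Ultrafilter ℕ) : Prop :=
  ∃ φ : A →⋆ₐ[ℂ] Ultrapower B ω, Function.Injective φ

/-- `s₁, s₂` are two isometries with `s₁ s₁^* + s₂ s₂^* = 1` (the Cuntz relations of `O_2`). -/
structure IsCuntzPair {B : Type*} [CStarAlgebra B] (s₁ s₂ : B) : Prop where
  iso₁ : star s₁ * s₁ = 1
  iso₂ : star s₂ * s₂ = 1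
  sum_eq : s₁ * star s₁ + s₂ * star s₂ = 1

end Vale.Agent.Lib.P083
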