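import Vale.Agent.Lib.P083.Defs

/-!
# Residually `O_2` algebras embed unitally into the norm ultrapower
-/

namespace Vale.Agent.Lib.P083

open Filter Topology
open scoped ENNReal

variable {A : Type*} [CStarAlgebra A] {B : Type*} [CStarAlgebra B]

namespace IsCuntzPair

variable {s₁ s₂ : B} (hs : IsCuntzPair s₁ s₂)
include hs

theorem orth₂₁ : star s₂ * s₁ = 0 := by
  have h1 : star s₁ * (s₁ * star s₁ + s₂ * star s₂) * s₁ = 1 := by
    rw [hs.sum_eq, mul_one, hs.iso₁]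
  have h2 : star s₁ * (s₁ * star s₁ + s₂ * star s₂) * s₁
      = (star s₁ * s₁) * (star s₁ * s₁) + star (star s₂ * s₁) * (star s₂ * s₁) := by
    rw [star_mul, star_star]; noncomm_ring
  rw [h2, hs.iso₁, mul_one] at h1
  have h3 : star (star s₂ * s₁) * (star s₂ * s₁) = 0 := by
    have := congrArg (fun x => x - 1) h1
    simpa using this
  exact CStarRing.star_mul_self_eq_zero_iff _ |>.mp h3

theorem orth₁₂ : star s₁ * s₂ = 0 := by
  have := congrArg star hs.orth₂₁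
  simpa using this

end IsCuntzPair

theorem norm_le_one_of_isometry [Nontrivial B] {s : B} (h : star s * s = 1) : ‖s‖ ≤ 1 := by
  have h1 : ‖s‖ * ‖s‖ = 1 := by
    rw [← CStarRing.norm_star_mul_self, h, norm_one]
  nlinarith [norm_nonneg s]

/-- The Cuntz sum `a ↦ s₁ φ(a) s₁^* + s₂ ψ(a) s₂^*` of two unital *-homomorphisms. -/
def cuntzSum {s₁ s₂ : B} (hs : IsCuntzPair s₁ s₂) (φ ψ : A →⋆ₐ[ℂ] B) : A →⋆ₐ[ℂ] B where
  toFun a := s₁ * φ a * star s₁ + s₂ * ψ a * star s₂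
  map_one' := by simp [hs.sum_eq]
  map_mul' a b := by
    have e1 : (s₁ * φ a * star s₁ + s₂ * ψ a * star s₂) * (s₁ * φ b * star s₁ + s₂ * ψ b * star s₂)
        = s₁ * φ a * (star s₁ * s₁) * φ b * star s₁ + s₁ * φ a * (star s₁ * s₂) * ψ b * star s₂
          + s₂ * ψ a * (star s₂ * s₁) * φ b * star s₁
          + s₂ * ψ a * (star s₂ * s₂) * ψ b * star s₂ := by noncomm_ring
    rw [e1, hs.iso₁, hs.iso₂, hs.orth₁₂, hs.orth₂₁, map_mul, map_mul]
    noncomm_ring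
  map_zero' := by simp
  map_add' a b := by
    rw [map_add, map_add]; noncomm_ring
  commutes' r := by
    simp only [Algebra.algebraMap_eq_smul_one, map_smul, map_one, mul_smul_comm, mul_one,
      smul_mul_assoc, ← smul_add, hs.sum_eq]
  map_star' a := by
    simp only [map_star, star_add, star_mul, star_star, mul_assoc]

theorem cuntzSum_apply {s₁ s₂ : B} (hs : IsCuntzPair s₁ s₂) (φ ψ : A →⋆ₐ[ℂ] B) (a : A) :
    cuntzSum hs φ ψ a = s₁ * φ a * star s₁ + s₂ * ψ a * star s₂ := rfl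

theorem compress₁ {s₁ s₂ : B} (hs : IsCuntzPair s₁ s₂) (φ ψ : A →⋆ₐ[ℂ] B) (a : A) :
    star s₁ * cuntzSum hs φ ψ a * s₁ = φ a := by
  have e1 : star s₁ * (s₁ * φ a * star s₁ + s₂ * ψ a * star s₂) * s₁
      = (star s₁ * s₁) * φ a * (star s₁ * s₁) + (star s₁ * s₂) * ψ a * (star s₂ * s₁) := by
    noncomm_ring
  rw [cuntzSum_apply, e1, hs.iso₁, hs.orth₁₂]
  simp

theorem compress₂ {s₁ s₂ : B} (hs : IsCuntzPair s₁ s₂) (φ ψ : A →⋆ₐ[ℂ] B) (a : A) :
    star s₂ * cuntzSum hs φ ψ a * s₂ = ψ a := by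
  have e1 : star s₂ * (s₁ * φ a * star s₁ + s₂ * ψ a * star s₂) * s₂
      = (star s₂ * s₁) * φ a * (star s₁ * s₂) + (star s₂ * s₂) * ψ a * (star s₂ * s₂) := by
    noncomm_ring
  rw [cuntzSum_apply, e1, hs.iso₂, hs.orth₂₁]
  simp

theorem norm_compress_le [Nontrivial B] {s : B} (h : star s * s = 1) (x : B) :
    ‖star s * x * s‖ ≤ ‖x‖ := by
  have h1 := norm_le_one_of_isometry h
  calc ‖star s * x * s‖ ≤ ‖star s * x‖ * ‖s‖ := norm_mul_le _ _
    _ ≤ ‖star s‖ * ‖x‖ * ‖s‖ := by gcongr; exact norm_mul_le _ _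
    _ = ‖s‖ * ‖x‖ * ‖s‖ := by rw [norm_star]
    _ ≤ 1 * ‖x‖ * 1 := by gcongr
    _ = ‖x‖ := by ring

/-- iterated Cuntz sums `π_0 ⊕ ... ⊕ π_n`. -/
def iterSum {s₁ s₂ : B} (hs : IsCuntzPair s₁ s₂) (π : ℕ → A →⋆ₐ[ℂ] B) : ℕ → A →⋆ₐ[ℂ] B
  | 0 => π 0
  | n + 1 => cuntzSum hs (π (n + 1)) (iterSum hs π n)

theorem norm_le_iterSum [Nontrivial B] {s₁ s₂ : B} (hs : IsCuntzPair s₁ s₂)
    (π : ℕ → A →⋆ₐ[ℂ] B) (a : A) : ∀ n k, k ≤ n → ‖π k a‖ ≤ ‖iterSum hs π n a‖ := by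
  intro n
  induction n with
  | zero =>
    intro k hk
    obtain rfl : k = 0 := by omega
    exact le_refl _
  | succ n ih =>
    intro k hk
    rcases Nat.lt_or_ge k (n + 1) with h | h
    · calc ‖π k a‖ ≤ ‖iterSum hs π n a‖ := ih k (by omega)
        _ = ‖star s₂ * iterSum hs π (n + 1) a * s₂‖ := by
            rw [iterSum, compress₂]
        _ ≤ ‖iterSum hs π (n + 1) a‖ := norm_compress_le hs.iso₂ _
    · obtain rfl : k = n + 1 := by omega
      calc ‖π (n + 1) a‖ = ‖star s₁ * iterSum hs π (n + 1) a * s₁‖ := by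
            rw [iterSum, compress₁]
        _ ≤ ‖iterSum hs π (n + 1) a‖ := norm_compress_le hs.iso₁ _

/-- A sequence of unital *-homomorphisms `A → B` as a bounded sequence. -/
noncomputable def seqElem (ρ : ℕ → A →⋆ₐ[ℂ] B) (a : A) : BddSeq B :=
  ⟨fun n => ρ n a, memℓp_infty ⟨‖a‖, by
    rintro _ ⟨n, rfl⟩
    exact NonUnitalStarAlgHom.norm_apply_le (ρ n) a⟩⟩

theorem seqElem_apply (ρ : ℕ → A →⋆ₐ[ℂ] B) (a : A) (n : ℕ) : seqElem ρ a n = ρ n a := rfl

/-- A sequence of unital *-homomorphisms `A → B` induces a unital *-homomorphism `A → B^ω`. -/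
noncomputable def ultraHom [Nontrivial B] (ω : Ultrafilter ℕ) (ρ : ℕ → A →⋆ₐ[ℂ] B) :
    A →⋆ₐ[ℂ] Ultrapower B ω where
  toFun a := ((seqElem ρ a : BddSeq B) : Ultrapower B ω)
  map_one' := by
    rw [← RingCon.coe_one]
    congr 1
    ext n
    simp [seqElem_apply]
  map_mul' a b := by
    rw [← RingCon.coe_mul]
    congr 1
    ext n
    simp [seqElem_apply]
  map_zero' := by
    rw [← RingCon.coe_zero]
    congr 1
    ext n
    simp [seqElem_apply]
  map_add' a b := by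
    rw [← RingCon.coe_add]
    congr 1
    ext n
    simp [seqElem_apply]
  commutes' r := by
    change _ = ((algebraMap ℂ (BddSeq B) r : BddSeq B) : Ultrapower B ω)
    congr 1
    ext n
    have h1 : (algebraMap ℂ (BddSeq B) r) = r • (1 : BddSeq B) :=
      Algebra.algebraMap_eq_smul_one r
    rw [h1, lp.coeFn_smul, lp.infty_coeFn_one]
    simp [seqElem_apply, Algebra.algebraMap_eq_smul_one]
  map_star' a := by
    change _ = ((star (seqElem ρ a) : BddSeq B) : Ultrapower B ω)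
    congr 1
    ext n
    rw [lp.star_apply, seqElem_apply, seqElem_apply]
    exact map_star _ _

theorem ultraHom_eq_zero_iff [Nontrivial B] (ω : Ultrafilter ℕ) (ρ : ℕ → A →⋆ₐ[ℂ] B) (a : A) :
    ultraHom ω ρ a = 0 ↔ Tendsto (fun n => ‖ρ n a‖) ω (𝓝 0) := by
  change ((seqElem ρ a : BddSeq B) : Ultrapower B ω) = ((0 : BddSeq B) : Ultrapower B ω) ↔ _
  rw [RingCon.eq]
  change Tendsto (fun n => ‖seqElem ρ a n - (0 : BddSeq B) n‖) ω (𝓝 0) ↔ _
  simp [seqElem_apply]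

/-- **Residually `B` algebras embed**: if `B` contains a Cuntz pair and a sequence of unital
*-homomorphisms `A → B` separates the points of `A`, then `A` embeds unitally into `B^ω` for every
free ultrafilter `ω`. -/
theorem unitallyEmbeds_of_separating [Nontrivial B] {s₁ s₂ : B} (hs : IsCuntzPair s₁ s₂)
    (ω : Ultrafilter ℕ) (hω : (ω : Filter ℕ) ≤ cofinite) (π : ℕ → A →⋆ₐ[ℂ] B)
    (hπ : ∀ a : A, (∀ k, π k a = 0) → a = 0) : UnitallyEmbeds A B ω := by
  refine ⟨ultraHom ω (iterSum hs π), ?_⟩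
  rw [injective_iff_map_eq_zero]
  intro a ha
  rw [ultraHom_eq_zero_iff] at ha
  apply hπ
  intro k
  by_contra hk
  have hpos : 0 < ‖π k a‖ := norm_pos_iff.mpr hk
  have h1 : ∀ᶠ n in (ω : Filter ℕ), ‖iterSum hs π n a‖ < ‖π k a‖ :=
    ha.eventually (gt_mem_nhds hpos)
  have h2 : ∀ᶠ n in (ω : Filter ℕ), k ≤ n := by
    apply hω
    rw [Nat.cofinite_eq_atTop]
    exact Filter.eventually_ge_atTop k
  obtain ⟨n, hn1, hn2⟩ := (h1.and h2).exists
  exact absurd (norm_le_iterSum hs π a n k hn2) (not_le.mpr hn1)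

end Vale.Agent.Lib.P083
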