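import Vale.Agent.Lib.P083.Embed

/-!
# Unital copies of matrix algebras in a C*-algebra containing a Cuntz pair
-/

namespace Vale.Agent.Lib.P083

open Filter Topology

variable {A : Type*} [CStarAlgebra A] {B : Type*} [CStarAlgebra B]

/-- `d + 1` isometries with orthogonal ranges summing to one:
`s₁, s₂ s₁, s₂² s₁, ..., s₂^d`. -/
def cuntzFam (s₁ s₂ : B) : (d : ℕ) → Fin (d + 1) → B
  | 0 => fun _ => 1
  | d + 1 => Fin.cons s₁ (fun i => s₂ * cuntzFam s₁ s₂ d i)

theorem cuntzFam_orth {s₁ s₂ : B} (hs : IsCuntzPair s₁ s₂) : ∀ (d : ℕ) (i j : Fin (d + 1)),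
    star (cuntzFam s₁ s₂ d i) * cuntzFam s₁ s₂ d j = if i = j then 1 else 0 := by
  intro d
  induction d with
  | zero =>
    intro i j
    have hij : i = j := Fin.ext (by have := i.2; have := j.2; omega)
    simp [cuntzFam, hij]
  | succ d ih =>
    intro i j
    refine Fin.cases ?_ (fun i => ?_) i <;> refine Fin.cases ?_ (fun j => ?_) j
    · simp [cuntzFam, hs.iso₁]
    · simp only [cuntzFam, Fin.cons_zero, Fin.cons_succ]
      rw [← mul_assoc, hs.orth₁₂, zero_mul, if_neg (Fin.succ_ne_zero j).symm]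
    · simp only [cuntzFam, Fin.cons_zero, Fin.cons_succ, star_mul]
      rw [mul_assoc, hs.orth₂₁, mul_zero, if_neg (Fin.succ_ne_zero i)]
    · simp only [cuntzFam, Fin.cons_succ, star_mul]
      have : star (cuntzFam s₁ s₂ d i) * star s₂ * (s₂ * cuntzFam s₁ s₂ d j)
          = star (cuntzFam s₁ s₂ d i) * (star s₂ * s₂) * cuntzFam s₁ s₂ d j := by noncomm_ring
      rw [this, hs.iso₂, mul_one, ih]
      simp [Fin.succ_inj]

theorem cuntzFam_sum {s₁ s₂ : B} (hs : IsCuntzPair s₁ s₂) : ∀ (d : ℕ),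
    ∑ i, cuntzFam s₁ s₂ d i * star (cuntzFam s₁ s₂ d i) = 1 := by
  intro d
  induction d with
  | zero => simp [cuntzFam]
  | succ d ih =>
    rw [Fin.sum_univ_succ]
    simp only [cuntzFam, Fin.cons_zero, Fin.cons_succ, star_mul]
    have : ∀ i, s₂ * cuntzFam s₁ s₂ d i * (star (cuntzFam s₁ s₂ d i) * star s₂)
        = s₂ * (cuntzFam s₁ s₂ d i * star (cuntzFam s₁ s₂ d i)) * star s₂ := by
      intro i; noncomm_ring
    simp only [this]
    rw [← Finset.sum_mul, ← Finset.mul_sum, ih, mul_one, hs.sum_eq]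

/-- The unital *-homomorphism `M_{d+1}(ℂ) → B`, `x ↦ ∑ x_{ij} t_i t_j^*`. -/
noncomputable def matHom {s₁ s₂ : B} (hs : IsCuntzPair s₁ s₂) (d : ℕ) :
    Matrix (Fin (d + 1)) (Fin (d + 1)) ℂ →⋆ₐ[ℂ] B where
  toFun x := ∑ i, ∑ j, x i j • (cuntzFam s₁ s₂ d i * star (cuntzFam s₁ s₂ d j))
  map_one' := by
    simp only [Matrix.one_apply, ite_smul, one_smul, zero_smul, Finset.sum_ite_eq,
      Finset.mem_univ, if_true]
    exact cuntzFam_sum hs d
  map_mul' x y := by
    have hu : ∀ i j k l : Fin (d + 1),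
        (cuntzFam s₁ s₂ d i * star (cuntzFam s₁ s₂ d j))
          * (cuntzFam s₁ s₂ d k * star (cuntzFam s₁ s₂ d l))
        = if j = k then cuntzFam s₁ s₂ d i * star (cuntzFam s₁ s₂ d l) else 0 := by
      intro i j k l
      have : (cuntzFam s₁ s₂ d i * star (cuntzFam s₁ s₂ d j))
          * (cuntzFam s₁ s₂ d k * star (cuntzFam s₁ s₂ d l))
          = cuntzFam s₁ s₂ d i * (star (cuntzFam s₁ s₂ d j) * cuntzFam s₁ s₂ d k)
            * star (cuntzFam s₁ s₂ d l) := by noncomm_ring
      rw [this, cuntzFam_orth hs]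
      split_ifs <;> simp
    simp only [Finset.sum_mul, Finset.mul_sum, smul_mul_smul_comm, hu, smul_ite, smul_zero,
      Matrix.mul_apply, Finset.sum_smul]
    simp only [Finset.sum_ite_eq', Finset.mem_univ, if_true]
    symm
    rw [Finset.sum_congr rfl (fun k _ => Finset.sum_comm), Finset.sum_comm]
    exact Finset.sum_congr rfl (fun a _ => Finset.sum_comm)
  map_zero' := by simp
  map_add' x y := by
    simp only [Matrix.add_apply, add_smul, Finset.sum_add_distrib]
  commutes' r := by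
    simp only [Matrix.algebraMap_matrix_apply, ite_smul, zero_smul, Finset.sum_ite_eq,
      Finset.mem_univ, if_true, Algebra.algebraMap_eq_smul_one, ← Finset.smul_sum,
      cuntzFam_sum hs d, smul_eq_mul, mul_one]
  map_star' x := by
    simp only [star_sum, star_smul, star_mul, star_star, Matrix.star_apply]
    rw [Finset.sum_comm]

theorem matHom_apply {s₁ s₂ : B} (hs : IsCuntzPair s₁ s₂) (d : ℕ)
    (x : Matrix (Fin (d + 1)) (Fin (d + 1)) ℂ) :
    matHom hs d x = ∑ i, ∑ j, x i j • (cuntzFam s₁ s₂ d i * star (cuntzFam s₁ s₂ d j)) := rfl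

theorem matHom_injective [Nontrivial B] {s₁ s₂ : B} (hs : IsCuntzPair s₁ s₂) (d : ℕ) :
    Function.Injective (matHom hs d) := by
  rw [injective_iff_map_eq_zero]
  intro x hx
  ext k l
  have h1 : star (cuntzFam s₁ s₂ d k) * matHom hs d x * cuntzFam s₁ s₂ d l = x k l • (1 : B) := by
    rw [matHom_apply]
    simp only [Finset.mul_sum, Finset.sum_mul, mul_smul_comm, smul_mul_assoc]
    have hu : ∀ i j : Fin (d + 1),
        star (cuntzFam s₁ s₂ d k) * (cuntzFam s₁ s₂ d i * star (cuntzFam s₁ s₂ d j))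
          * cuntzFam s₁ s₂ d l = if k = i then (if j = l then 1 else 0) else 0 := by
      intro i j
      have : star (cuntzFam s₁ s₂ d k) * (cuntzFam s₁ s₂ d i * star (cuntzFam s₁ s₂ d j))
          * cuntzFam s₁ s₂ d l
          = (star (cuntzFam s₁ s₂ d k) * cuntzFam s₁ s₂ d i)
            * (star (cuntzFam s₁ s₂ d j) * cuntzFam s₁ s₂ d l) := by noncomm_ring
      rw [this, cuntzFam_orth hs, cuntzFam_orth hs]
      split_ifs <;> simp
    simp only [hu, smul_ite, smul_zero]
    simp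
  rw [hx, mul_zero, zero_mul] at h1
  have h2 := h1.symm
  rw [smul_eq_zero] at h2
  rcases h2 with h2 | h2
  · simpa using h2
  · exact absurd h2 one_ne_zero

/-- **RFD algebras embed**: a unital C*-algebra with a separating sequence of unital
finite-dimensional representations embeds unitally into `B^ω`, if `B` contains a Cuntz pair. -/
theorem unitallyEmbeds_of_rfd [Nontrivial B] {s₁ s₂ : B} (hs : IsCuntzPair s₁ s₂)
    (ω : Ultrafilter ℕ) (hω : (ω : Filter ℕ) ≤ cofinite) (d : ℕ → ℕ)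
    (π : ∀ k, A →⋆ₐ[ℂ] Matrix (Fin (d k + 1)) (Fin (d k + 1)) ℂ)
    (hπ : ∀ a : A, (∀ k, π k a = 0) → a = 0) : UnitallyEmbeds A B ω := by
  refine unitallyEmbeds_of_separating hs ω hω (fun k => (matHom hs (d k)).comp (π k)) ?_
  intro a ha
  apply hπ
  intro k
  have h1 : matHom hs (d k) (π k a) = 0 := ha k
  exact (matHom_injective hs (d k)) (by rw [h1, map_zero])

end Vale.Agent.Lib.P083
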