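import Mathlib

/-!
# Unital embeddings into the norm ultrapower, spelled out on representing sequences
-/

namespace Vale.Agent.Lib.P083

open Filter Topology

/-- `Φ : A → (ℕ → B)` takes values in the bounded sequences and `a ↦ Φ a + I_ω(B)` is an injective
unital *-homomorphism from `A` to `B^ω = ℓ^∞(ℕ, B) / I_ω(B)`, where
`I_ω(B) = {(b_n) : lim_{n → ω} ‖b_n‖ = 0}`. -/
structure IsUltrapowerEmbedding {A : Type*} [CStarAlgebra A] {B : Type*} [CStarAlgebra B]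
    (ω : Ultrafilter ℕ) (Φ : A → ℕ → B) : Prop where
  bounded : ∀ a, ∃ C : ℝ, ∀ n, ‖Φ a n‖ ≤ C
  map_add : ∀ a b, Tendsto (fun n => ‖Φ (a + b) n - (Φ a n + Φ b n)‖) ω (𝓝 0)
  map_smul : ∀ (c : ℂ) (a : A), Tendsto (fun n => ‖Φ (c • a) n - c • Φ a n‖) ω (𝓝 0)
  map_mul : ∀ a b, Tendsto (fun n => ‖Φ (a * b) n - Φ a n * Φ b n‖) ω (𝓝 0)
  map_star : ∀ a, Tendsto (fun n => ‖Φ (star a) n - star (Φ a n)‖) ω (𝓝 0)
  map_one : Tendsto (fun n => ‖Φ 1 n - 1‖) ω (𝓝 0)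
  injective : ∀ a, Tendsto (fun n => ‖Φ a n‖) ω (𝓝 0) → a = 0

end Vale.Agent.Lib.P083
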