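import Vale.Agent.Lib.P083.Mat
import Vale.Agent.Lib.P083.SeqDefs

namespace Vale.Agent.Lib.P083

open Filter Topology

variable {A : Type*} [CStarAlgebra A] {B : Type*} [CStarAlgebra B]

theorem isUltrapowerEmbedding_of_separating [Nontrivial B] {s₁ s₂ : B} (hs : IsCuntzPair s₁ s₂)
    (ω : Ultrafilter ℕ) (hω : (ω : Filter ℕ) ≤ cofinite) (π : ℕ → A →⋆ₐ[ℂ] B)
    (hπ : ∀ a : A, (∀ k, π k a = 0) → a = 0) :
    IsUltrapowerEmbedding ω (fun a n => iterSum hs π n a) where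
  bounded a := ⟨‖a‖, fun n => NonUnitalStarAlgHom.norm_apply_le (iterSum hs π n) a⟩
  map_add a b := by simp
  map_smul c a := by simp
  map_mul a b := by simp
  map_star a := by simp [map_star]
  map_one := by simp
  injective a ha := by
    apply hπ
    intro k
    by_contra hk
    have hpos : 0 < ‖π k a‖ := norm_pos_iff.mpr hk
    have h1 : ∀ᶠ n in (ω : Filter ℕ), ‖iterSum hs π n a‖ < ‖π k a‖ :=
      ha.eventually (gt_mem_nhds hpos)
    have h2 : ∀ᶠ n in (ω : Filter ℕ), k ≤ n := by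
      apply hω
      rw [Nat.cofinite_eq_atTop]
      exact Filter.eventually_ge_atTop k
    obtain ⟨n, hn1, hn2⟩ := (h1.and h2).exists
    exact absurd (norm_le_iterSum hs π a n k hn2) (not_le.mpr hn1)

theorem exists_isUltrapowerEmbedding_of_rfd [Nontrivial B] {s₁ s₂ : B} (hs : IsCuntzPair s₁ s₂)
    (ω : Ultrafilter ℕ) (hω : (ω : Filter ℕ) ≤ cofinite) (d : ℕ → ℕ)
    (π : ∀ k, A →⋆ₐ[ℂ] Matrix (Fin (d k + 1)) (Fin (d k + 1)) ℂ)
    (hπ : ∀ a : A, (∀ k, π k a = 0) → a = 0) :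
    ∃ Φ : A → ℕ → B, IsUltrapowerEmbedding ω Φ := by
  refine ⟨_, isUltrapowerEmbedding_of_separating hs ω hω
    (fun k => (matHom hs (d k)).comp (π k)) ?_⟩
  intro a ha
  apply hπ
  intro k
  have h1 : matHom hs (d k) (π k a) = 0 := ha k
  exact (matHom_injective hs (d k)) (by rw [h1, map_zero])

end Vale.Agent.Lib.P083
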